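import Vale.Agent.Lib.P157.Main

/-!
P157.  Gaussian perceptron models on the Ising cube: the limit of the expected pressure exists for
every pattern density, for every log-potential `f` such that `c - e^f` is positive definite.
-/

namespace Vale.Agent.Results.P157.LimitExists

open MeasureTheory ProbabilityTheory Filter Topology
open Vale.Agent.Lib.P157

/-- Let `e^f = c (1 - κ ∫ cos (θ h) dρ(θ))` with `c > 0`, `0 ≤ κ < 1` and a probability measure
`ρ` on the line.  Then for every `α > 0` the expected pressure `E p_N(f)` of the Ising perceptron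
with `⌊α N⌋` Gaussian patterns converges to some `L`, and for every bound `F` of `|f|` and every
`N ≥ 1` one has `E p_N(f) ≤ L + 4 F √(1 + α) / √N`. -/
theorem result (f : ℝ → ℝ) (hf : Good f) (α : ℝ) (hα : 0 < α) :
    ∃ L : ℝ, Tendsto (EP α f) atTop (𝓝 L) ∧
      ∀ F : ℝ, (∀ h, |f h| ≤ F) → ∀ N : ℕ, 0 < N →
        EP α f N ≤ L + 4 * F * Real.sqrt (1 + α) / Real.sqrt N :=
  main hf hα

end Vale.Agent.Results.P157.LimitExists
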